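import Vale.Agent.Lib.P074.Main
import Vale.Agent.Lib.P074.Final2

open Vale.Agent.Lib.P074

namespace Vale.Agent.Results.P074.A00_dim2

/-- In dimension two the stability exponent of quadratic optimal transport maps from the uniform
measure on a convex body is exactly `1/3`, and the supremum is attained; in every dimension `d ≥ 2`
the exponent `1/4` is admissible and no exponent above `1/3` is admissible. -/
theorem result :
    (Admissible 2 (1 / 3) ∧ (∀ α : ℝ, 1 / 3 < α → ¬ Admissible 2 α) ∧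
      sSup {α : ℝ | 0 < α ∧ α ≤ 1 ∧ Admissible 2 α} = 1 / 3) ∧
    ∀ d : ℕ, 2 ≤ d → Admissible d (1 / 4) ∧ (∀ α : ℝ, 1 / 3 < α → ¬ Admissible d α) ∧
      1 / 4 ≤ sSup {α : ℝ | 0 < α ∧ α ≤ 1 ∧ Admissible d α} ∧
      sSup {α : ℝ | 0 < α ∧ α ≤ 1 ∧ Admissible d α} ≤ 1 / 3 := by
  constructor
  · obtain ⟨h1, h2, -⟩ := main 2 (le_refl 2)
    refine ⟨admissible_third, h1, le_antisymm h2 ?_⟩
    apply le_csSup
    · exact ⟨1, fun α hα => hα.2.1⟩
    · exact ⟨by norm_num, by norm_num, admissible_third⟩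
  · intro d hd
    obtain ⟨h1, h2, -⟩ := main d hd
    have hq : Admissible d (1 / 4) := admissible_quarter (by omega)
    refine ⟨hq, h1, ?_, h2⟩
    apply le_csSup
    · exact ⟨1, fun α hα => hα.2.1⟩
    · exact ⟨by norm_num, by norm_num, hq⟩

end Vale.Agent.Results.P074.A00_dim2
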