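import Vale.Agent.Lib.P074.XFinal

open MeasureTheory Set Filter
open scoped ENNReal NNReal
open Vale.Agent.Lib.P074

namespace Vale.Agent.Results.P074.A00_exact

/-- In every dimension `d ≥ 2` the supremum of the admissible exponents for the stability of
quadratic optimal transport maps from the uniform measure on a convex body is exactly `1/3`: every
`α < 1/3` is admissible and no `α > 1/3` is. More precisely, stability holds with exponent `1/3` up
to a factor `√(1 + log(1/t))`, where `W₂(μ, ν) < t ≤ 1`. -/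
theorem result (d : ℕ) (hd : 2 ≤ d) :
    (∀ α : ℝ, 0 < α → α < 1 / 3 → Admissible d α) ∧
    (∀ α : ℝ, 1 / 3 < α → ¬ Admissible d α) ∧
    sSup {α : ℝ | 0 < α ∧ α ≤ 1 ∧ Admissible d α} = 1 / 3 ∧
    ∀ K : Set (E d), IsCompact K → Convex ℝ K → (interior K).Nonempty →
      ∀ Y : Set (E d), IsCompact Y → Y.Nonempty →
        ∃ C : ℝ, 0 ≤ C ∧ ∀ μ ν : Measure (E d), IsProbabilityMeasure μ → IsProbabilityMeasure ν →
          (∀ᵐ y ∂μ, y ∈ Y) → (∀ᵐ y ∂ν, y ∈ Y) →
          ∀ Tμ Tν : E d → E d,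
            IsOptimalMap (uniformProb K) μ Tμ → IsOptimalMap (uniformProb K) ν Tν →
            ∀ t : ℝ, 0 < t → t ≤ 1 → W2 μ ν < ENNReal.ofReal t →
              L2Dist (uniformProb K) Tμ Tν ≤
                ENNReal.ofReal (C * t ^ (1 / 3 : ℝ) * Real.sqrt (1 + Real.log (1 / t))) := by
  have hd1 : 1 ≤ d := by omega
  have hlow : ∀ α : ℝ, 0 < α → α < 1 / 3 → Admissible d α := fun α h0 h1 =>
    admissible_of_lt_third hd1 h0 h1
  obtain ⟨hup, -, -⟩ := main d hd
  refine ⟨hlow, hup, ?_, fun K hK hconv hint Y hY hYne => stability_log hd1 hK hconv hint hY hYne⟩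
  apply csSup_eq_of_forall_le_of_forall_lt_exists_gt
  · exact ⟨1 / 4, by norm_num, by norm_num, hlow _ (by norm_num) (by norm_num)⟩
  · rintro α ⟨-, -, hα⟩
    by_contra hcon
    push Not at hcon
    exact hup α hcon hα
  · intro w hw
    have h1 : 0 < max ((w + 1 / 3) / 2) (1 / 6) := lt_max_of_lt_right (by norm_num)
    have h2 : max ((w + 1 / 3) / 2) (1 / 6) < 1 / 3 := max_lt (by linarith) (by norm_num)
    refine ⟨max ((w + 1 / 3) / 2) (1 / 6), ⟨h1, by linarith, hlow _ h1 h2⟩, ?_⟩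
    exact lt_max_of_lt_left (by linarith)

end Vale.Agent.Results.P074.A00_exact
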