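import Vale.Agent.Lib.P074.Main
import Vale.Agent.Lib.P074.Cyc

open Vale.Agent.Lib.P074

namespace Vale.Agent.Results.P074.A0_bounds

/-- In every dimension `d ≥ 2` the exponent `1/4` is admissible for the stability of quadratic
optimal transport maps from the uniform measure on a convex body, no exponent `α > 1/3` is
admissible, and hence `1/4 ≤ α*_d ≤ 1/3`. -/
theorem result (d : ℕ) (hd : 2 ≤ d) :
    Admissible d (1 / 4) ∧ (∀ α : ℝ, 1 / 3 < α → ¬ Admissible d α) ∧
      1 / 4 ≤ sSup {α : ℝ | 0 < α ∧ α ≤ 1 ∧ Admissible d α} ∧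
      sSup {α : ℝ | 0 < α ∧ α ≤ 1 ∧ Admissible d α} ≤ 1 / 3 := by
  obtain ⟨h1, h2, -⟩ := main d hd
  have hq : Admissible d (1 / 4) := admissible_quarter (by omega)
  refine ⟨hq, h1, ?_, h2⟩
  apply le_csSup
  · exact ⟨1, fun α hα => hα.2.1⟩
  · exact ⟨by norm_num, by norm_num, hq⟩

end Vale.Agent.Results.P074.A0_bounds
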