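import Vale.Agent.Lib.P074.W1

open Vale.Agent.Lib.P074

namespace Vale.Agent.Results.P074.A1_W1sharp

/-- In every dimension `d ≥ 2` the sharp exponent of stability with respect to `W₁` is `1/4`:
`‖Tμ - Tν‖_{L²(ρ)} ≤ C W₁(μ, ν)^(1/4)` holds for the uniform measure `ρ` on every convex body and
all targets in a compact set, and no exponent above `1/4` holds. -/
theorem result (d : ℕ) (hd : 2 ≤ d) :
    AdmissibleW1 d (1 / 4) ∧ ∀ α : ℝ, 1 / 4 < α → ¬ AdmissibleW1 d α :=
  W1_sharp d hd

end Vale.Agent.Results.P074.A1_W1sharp
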