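import Vale.Agent.Lib.P074.Main

open Vale.Agent.Lib.P074

namespace Vale.Agent.Results.P074.A_main

/-- In every dimension `d ≥ 2` no exponent `α > 1/3` is admissible for the stability of quadratic
optimal transport maps from the uniform measure on a convex body. Hence `α*_d ≤ 1/3`, and the
exponent `1/2` conjectured by Letrouit is not admissible. -/
theorem result (d : ℕ) (hd : 2 ≤ d) :
    (∀ α : ℝ, 1 / 3 < α → ¬ Admissible d α) ∧
      sSup {α : ℝ | 0 < α ∧ α ≤ 1 ∧ Admissible d α} ≤ 1 / 3 ∧ ¬ Admissible d (1 / 2) :=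
  main d hd

end Vale.Agent.Results.P074.A_main
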