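import Vale.Agent.Lib.P074.Quarter

open MeasureTheory Set
open scoped ENNReal NNReal RealInnerProductSpace
open Vale.Agent.Lib.P074

namespace Vale.Agent.Results.P074.B_gradient

/-- Stability with exponent `1/4` for gradients of convex functions: for every compact convex `K`
with nonempty interior and every nonempty compact `Y` there is a finite `C` with
`‖T₀ - T₁‖_{L²(ρ)} ≤ C W₂(μ₀, μ₁)^(1/4)` whenever `μᵢ` are probability measures carried by `Y`,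
`Tᵢ` is Borel with `Tᵢ_# ρ = μᵢ` and `Tᵢ x` is a subgradient at `x`, relative to `K`, of a real
function `φᵢ`, for `ρ`-almost every `x`. -/
theorem result (d : ℕ) (hd : 2 ≤ d) (K : Set (E d)) (hK : IsCompact K) (hconv : Convex ℝ K)
    (hint : (interior K).Nonempty) (Y : Set (E d)) (hY : IsCompact Y) (hYne : Y.Nonempty) :
    ∃ C : ℝ≥0, ∀ μ₀ μ₁ : Measure (E d), IsProbabilityMeasure μ₀ → IsProbabilityMeasure μ₁ →
      (∀ᵐ y ∂μ₀, y ∈ Y) → (∀ᵐ y ∂μ₁, y ∈ Y) →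
      ∀ T₀ T₁ : E d → E d, Measurable T₀ → Measurable T₁ →
        (uniformProb K).map T₀ = μ₀ → (uniformProb K).map T₁ = μ₁ →
        (∃ φ₀ : E d → ℝ, ∀ᵐ x ∂(uniformProb K), ∀ z ∈ K, φ₀ x + ⟪T₀ x, z - x⟫ ≤ φ₀ z) →
        (∃ φ₁ : E d → ℝ, ∀ᵐ x ∂(uniformProb K), ∀ z ∈ K, φ₁ x + ⟪T₁ x, z - x⟫ ≤ φ₁ z) →
          L2Dist (uniformProb K) T₀ T₁ ≤ C * W2 μ₀ μ₁ ^ (1 / 4 : ℝ) := by
  obtain ⟨C, hC⟩ := quarter_gradient (by omega : 1 ≤ d) hK hconv hint hY hYne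
  refine ⟨C, fun μ₀ μ₁ _ _ h₀ h₁ T₀ T₁ hT₀ hT₁ hm₀ hm₁ hg₀ hg₁ => ?_⟩
  have hfin : volume K ≠ ⊤ := hK.measure_lt_top.ne
  have hKm : MeasurableSet K := hK.isClosed.measurableSet
  have conv : ∀ T : E d → E d,
      (∃ φ : E d → ℝ, ∀ᵐ x ∂(uniformProb K), ∀ z ∈ K, φ x + ⟪T x, z - x⟫ ≤ φ z) →
      IsGradConvex K T := by
    rintro T ⟨φ, hφ⟩
    refine ⟨φ, ?_⟩
    have h1 := (volume_restrict_ac_uniformProb hfin).ae_le hφ
    filter_upwards [h1, ae_restrict_mem hKm] with x hx hxK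
    exact ⟨hxK, hx⟩
  exact hC μ₀ μ₁ h₀ h₁ T₀ T₁ hT₀ hT₁ hm₀ hm₁ (conv _ hg₀) (conv _ hg₁)

end Vale.Agent.Results.P074.B_gradient
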